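import Vale.Agent.Lib.P166.Dirac

/-!
P166, the degenerate case of a point mass `μ = δ_c`: if all eigenvalues of `Λ_N` converge
uniformly to `c`, then `P_N(β) → β c / 2` for every sequence of orthogonal matrices.
-/

namespace Vale.Agent.Results.P166.DiracLimit

open Vale.Agent.Lib.P166

theorem result : ∀ (c β : ℝ), 0 ≤ β →
    ∀ (lam : (N : ℕ) → Fin N → ℝ) (U : (N : ℕ) → Matrix (Fin N) (Fin N) ℝ),
    (∀ N, U N ∈ Matrix.orthogonalGroup (Fin N) ℝ) →
    (∀ ε > 0, ∃ N₀ : ℕ, ∀ N ≥ N₀, ∀ i, |lam N i - c| ≤ ε) →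
    Filter.Tendsto (fun N => pressure (coupling (U N) (lam N)) β) Filter.atTop
      (nhds (β / 2 * c)) :=
  fun c β hβ lam U hU hlam => pressure_tendsto_of_uniform c β hβ lam U hU hlam

end Vale.Agent.Results.P166.DiracLimit
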