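import Vale.Agent.Lib.P166.Dirac
import Vale.Agent.Lib.P166.Stability

/-!
P166: three deterministic facts on the pressure of `J = Uᵀ diag(lam) U`, valid for every
orthogonal matrix `U`, in one statement.

First part: a priori bounds `(β/2) * mean(lam) ≤ P_N(β) ≤ (β/2) * max(lam)`.  Second part: if
all eigenvalues converge uniformly to `c`, the pressure converges to `β c / 2`.  Third part:
stability of the pressure under uniformly small changes of the eigenvalues, up to a relabelling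
realised by a fixed orthogonal matrix acting on `U` from the left.
-/

namespace Vale.Agent.Results.P166.Omnibus

open Vale.Agent.Lib.P166

theorem result :
    (∀ (N : ℕ), 0 < N → ∀ (U : Matrix (Fin N) (Fin N) ℝ),
      U ∈ Matrix.orthogonalGroup (Fin N) ℝ → ∀ (lam : Fin N → ℝ) (M β : ℝ), 0 ≤ β →
      (∀ i, lam i ≤ M) →
      β / 2 * ((∑ i, lam i) / N) ≤ pressure (coupling U lam) β ∧
        pressure (coupling U lam) β ≤ β / 2 * M) ∧
    (∀ (c β : ℝ), 0 ≤ β →
      ∀ (lam : (N : ℕ) → Fin N → ℝ) (U : (N : ℕ) → Matrix (Fin N) (Fin N) ℝ),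
      (∀ N, U N ∈ Matrix.orthogonalGroup (Fin N) ℝ) →
      (∀ ε > 0, ∃ N₀ : ℕ, ∀ N ≥ N₀, ∀ i, |lam N i - c| ≤ ε) →
      Filter.Tendsto (fun N => pressure (coupling (U N) (lam N)) β) Filter.atTop
        (nhds (β / 2 * c))) ∧
    (∀ (N : ℕ), 0 < N → ∀ (lam lam' : Fin N → ℝ) (π : Equiv.Perm (Fin N))
      (δ β : ℝ), 0 ≤ β → (∀ i, |lam i - lam' (π i)| ≤ δ) →
      ∃ Q ∈ Matrix.orthogonalGroup (Fin N) ℝ, ∀ U ∈ Matrix.orthogonalGroup (Fin N) ℝ,
        |pressure (coupling U lam) β - pressure (coupling (Q * U) lam') β| ≤ β / 2 * δ) :=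
  ⟨fun _ hN _ hU lam M _ hβ hM => ⟨le_pressure hN hU lam _, pressure_le hN hU lam M hM hβ⟩,
    fun c β hβ lam U hU hlam => pressure_tendsto_of_uniform c β hβ lam U hU hlam,
    fun _ hN lam lam' π δ _ hβ h => pressure_stability hN lam lam' π δ hβ h⟩

end Vale.Agent.Results.P166.Omnibus
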