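import Vale.Agent.Lib.P166.Bounds

/-!
P166: deterministic a priori bounds for the pressure, valid for every orthogonal matrix `U`
(so for every realisation of the Haar matrix): `(β/2) * mean(λ) ≤ P_N(β) ≤ (β/2) * max(λ)`.
-/

namespace Vale.Agent.Results.P166.Sandwich

open Vale.Agent.Lib.P166

theorem result : ∀ (N : ℕ), 0 < N → ∀ (U : Matrix (Fin N) (Fin N) ℝ),
    U ∈ Matrix.orthogonalGroup (Fin N) ℝ → ∀ (lam : Fin N → ℝ) (M β : ℝ), 0 ≤ β →
    (∀ i, lam i ≤ M) →
    β / 2 * ((∑ i, lam i) / N) ≤ pressure (coupling U lam) β ∧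
      pressure (coupling U lam) β ≤ β / 2 * M :=
  fun _ hN _ hU lam M _ hβ hM => ⟨le_pressure hN hU lam _, pressure_le hN hU lam M hM hβ⟩

end Vale.Agent.Results.P166.Sandwich
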