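import Vale.Agent.Lib.P166.Stability

/-!
P166: the pressure is stable under uniformly small changes of the eigenvalues, up to a
relabelling of the eigenvalues.  The relabelling is realised by a fixed orthogonal matrix `Q`
acting on `U` by left multiplication, which preserves Haar measure.
-/

namespace Vale.Agent.Results.P166.SpectralStability

open Vale.Agent.Lib.P166

theorem result : ∀ (N : ℕ), 0 < N → ∀ (lam lam' : Fin N → ℝ) (π : Equiv.Perm (Fin N))
    (δ β : ℝ), 0 ≤ β → (∀ i, |lam i - lam' (π i)| ≤ δ) →
    ∃ Q ∈ Matrix.orthogonalGroup (Fin N) ℝ, ∀ U ∈ Matrix.orthogonalGroup (Fin N) ℝ,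
      |pressure (coupling U lam) β - pressure (coupling (Q * U) lam') β| ≤ β / 2 * δ :=
  fun _ hN lam lam' π δ _ hβ h => pressure_stability hN lam lam' π δ hβ h

end Vale.Agent.Results.P166.SpectralStability
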